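import Vale.Agent.Lib.P171b.Limit

namespace Vale.Agent.Results.P171.A_main

open Vale.Agent.Lib.P171b

/-- Affirmative answer to Q1: there is a bounded, Borel, stable and tempered radial pair potential
on `ℝ³` having a phase transition in sense (a): at inverse temperature `β = 1` the thermodynamic
limit of the grand canonical pressure exists for every activity `z > 0`, and the resulting function
of `z` is not differentiable at some `z > 0`. -/
theorem result :
    ∃ φ : ℝ → ℝ, Measurable φ ∧ (∃ M : ℝ, ∀ r, 0 < r → |φ r| ≤ M) ∧
      IsStablePot φ ∧ IsTemperedPot φ ∧ HasPressureKink φ :=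
  exists_phase_transition

end Vale.Agent.Results.P171.A_main
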