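import Vale.Agent.Lib.P171.Defs
import Vale.Agent.Lib.P171.Final

/-!
# A stable tempered radial pair potential in three dimensions with a phase transition

There is a bounded Borel radial pair potential on three dimensional space which is stable and
tempered, whose pressure `Π(1,z)` (the limit of the finite volume pressures, which exists) is not
differentiable at some activity `z₀ > 0`.
-/

open Filter
open scoped ENNReal Topology
open Vale.Agent.Lib.P171

namespace Vale.Agent.Results.P171.A_phase_transition

/-- Existence of a stable, tempered, bounded Borel radial pair potential with a phase transition: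
at inverse temperature one the grand partition sums are finite, the finite volume pressures
converge for every activity, and the limit is not differentiable at some activity. -/
theorem result :
    ∃ φ : ℝ → ℝ,
      Measurable φ ∧
      (∃ M : ℝ, ∀ r, |φ r| ≤ M) ∧
      (∃ B : ℝ, ∀ (N : ℕ) (x : Fin N → R3), -B * (N : ℝ) ≤ energy φ x) ∧
      (∃ C ε R₀ : ℝ, 0 < C ∧ 0 < ε ∧ 0 < R₀ ∧ ∀ r, R₀ ≤ r → φ r ≤ C * r ^ (-3 - ε)) ∧
      (∀ z L : ℝ, 0 < z → 0 < L → grandXi φ 1 z L ≠ ⊤) ∧
      (∀ z : ℝ, 0 < z → Tendsto (fun L => finitePressure φ 1 z L) atTop (𝓝 (pressure φ 1 z))) ∧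
      ∃ z₀ : ℝ, 0 < z₀ ∧ ¬ DifferentiableAt ℝ (fun z => pressure φ 1 z) z₀ :=
  exists_potential

end Vale.Agent.Results.P171.A_phase_transition
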